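import Crest.Agent.Helper57.Fan.Basic

/-!
# Row 211: cylinder covers by triangular cylinders — reindexing and padding

`IsCylCover S u p q r` is the common part of the conclusions of S0324/S0325: unit axes, bases in the
orthogonal planes, and coverage.  `reindex_cover` transports a cover along a bijection of index types,
`pad_cover` pads a cover with one tuning triangle and degenerate triangles so that the number of
cylinders and the total Gram area take prescribed values.
-/

set_option autoImplicit false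

namespace Crest.Agent.Helper57

/-- `S` is covered by the cylinders with unit axes `u i` over the triangles `p i, q i, r i ⊂ (u i)^⊥`. -/
def IsCylCover {ι : Type*} (S : Set E3) (u p q r : ι → E3) : Prop :=
  (∀ i, ‖u i‖ = 1) ∧
  (∀ i, inner ℝ (p i) (u i) = 0 ∧ inner ℝ (q i) (u i) = 0 ∧ inner ℝ (r i) (u i) = 0) ∧
  S ⊆ ⋃ i, {x : E3 | ∃ b ∈ convexHull ℝ ({p i, q i, r i} : Set E3), ∃ t : ℝ, x = b + t • u i}

theorem reindex_cover {ι : Type*} [Fintype ι] {S : Set E3} {u p q r : ι → E3}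
    (h : IsCylCover S u p q r) {m : ℕ} (hm : Fintype.card ι = m) :
    ∃ (u' p' q' r' : Fin m → E3), IsCylCover S u' p' q' r' ∧
      ∑ i, triArea (p' i) (q' i) (r' i) = ∑ i, triArea (p i) (q i) (r i) := by
  classical
  let e : Fin m ≃ ι := (Fintype.equivFinOfCardEq hm).symm
  obtain ⟨h1, h2, h3⟩ := h
  refine ⟨u ∘ e, p ∘ e, q ∘ e, r ∘ e, ⟨fun i => h1 (e i), fun i => h2 (e i), ?_⟩, ?_⟩
  · intro x hx
    obtain ⟨i, hi⟩ := Set.mem_iUnion.mp (h3 hx)
    refine Set.mem_iUnion.mpr ⟨e.symm i, ?_⟩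
    simpa using hi
  · exact Equiv.sum_comp e (fun i => triArea (p i) (q i) (r i))

theorem triArea_tuning (a : ℝ) (ha : 0 ≤ a) :
    triArea (0 : E3) !₂[2 * a, 0, 0] !₂[0, 1, 0] = a := by
  unfold triArea
  rw [sub_zero, sub_zero, E3_norm_sq, E3_norm_sq, E3_inner]
  simp
  rw [show (2 * a) ^ 2 = (2 * a) * (2 * a) by ring, Real.sqrt_mul_self (by positivity)]
  ring

theorem triArea_degenerate (v : E3) : triArea (0 : E3) 0 v = 0 := by
  unfold triArea
  simp

theorem pad_cover {S : Set E3} {m : ℕ} {u p q r : Fin m → E3} (h : IsCylCover S u p q r) (T : ℝ)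
    (hT : ∑ i, triArea (p i) (q i) (r i) ≤ T) (n : ℕ) (hn : m < n) :
    ∃ (u' p' q' r' : Fin n → E3), IsCylCover S u' p' q' r' ∧
      ∑ i, triArea (p' i) (q' i) (r' i) = T := by
  classical
  obtain ⟨h1, h2, h3⟩ := h
  set A₀ : ℝ := ∑ i, triArea (p i) (q i) (r i) with hA₀
  let U : ℕ → E3 := fun j => if hj : j < m then u ⟨j, hj⟩ else !₂[0, 0, 1]
  let P : ℕ → E3 := fun j => if hj : j < m then p ⟨j, hj⟩ else 0
  let Q : ℕ → E3 := fun j => if hj : j < m then q ⟨j, hj⟩ else
    if j = m then !₂[2 * (T - A₀), 0, 0] else 0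
  let R : ℕ → E3 := fun j => if hj : j < m then r ⟨j, hj⟩ else !₂[0, 1, 0]
  let g : ℕ → ℝ := fun j => if hj : j < m then triArea (p ⟨j, hj⟩) (q ⟨j, hj⟩) (r ⟨j, hj⟩) else
    if j = m then T - A₀ else 0
  have hg : ∀ j : ℕ, triArea (P j) (Q j) (R j) = g j := by
    intro j
    by_cases hj : j < m
    · simp only [P, Q, R, g, dif_pos hj]
    · by_cases hjm : j = m
      · simp only [P, Q, R, g, dif_neg hj, if_pos hjm]
        exact triArea_tuning _ (by linarith)
      · simp only [P, Q, R, g, dif_neg hj, if_neg hjm]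
        exact triArea_degenerate _
  refine ⟨fun j => U j, fun j => P j, fun j => Q j, fun j => R j, ⟨?_, ?_, ?_⟩, ?_⟩
  · intro j
    by_cases hj : (j : ℕ) < m
    · simp only [U, dif_pos hj]; exact h1 _
    · simp only [U, dif_neg hj]
      have : ‖(!₂[0, 0, 1] : E3)‖ ^ 2 = 1 := by rw [E3_norm_sq]; simp
      have h0 : 0 ≤ ‖(!₂[0, 0, 1] : E3)‖ := norm_nonneg _
      nlinarith
  · intro j
    by_cases hj : (j : ℕ) < m
    · simp only [U, P, Q, R, dif_pos hj]; exact h2 _
    · by_cases hjm : (j : ℕ) = m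
      · simp only [U, P, Q, R, dif_neg hj, if_pos hjm]
        refine ⟨by simp, ?_, ?_⟩ <;> · rw [E3_inner]; simp
      · simp only [U, P, Q, R, dif_neg hj, if_neg hjm]
        refine ⟨by simp, by simp, ?_⟩
        rw [E3_inner]; simp
  · intro x hx
    obtain ⟨i, hi⟩ := Set.mem_iUnion.mp (h3 hx)
    refine Set.mem_iUnion.mpr ⟨⟨i, lt_trans i.isLt hn⟩, ?_⟩
    have hi' : ((⟨(i : ℕ), lt_trans i.isLt hn⟩ : Fin n) : ℕ) < m := i.isLt
    simp only [U, P, Q, R, dif_pos hi', Fin.eta]
    exact hi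
  · have e1 : ∑ j : Fin n, triArea (P j) (Q j) (R j) = ∑ j ∈ Finset.range n, g j := by
      rw [← Fin.sum_univ_eq_sum_range g n]
      exact Finset.sum_congr rfl (fun j _ => hg j)
    have e2 : ∑ j ∈ Finset.range m, g j = A₀ := by
      rw [← Fin.sum_univ_eq_sum_range g m, hA₀]
      refine Finset.sum_congr rfl (fun j _ => ?_)
      simp only [g, dif_pos j.isLt, Fin.eta]
    have e3 : ∑ j ∈ Finset.Ico m n, g j = T - A₀ := by
      rw [Finset.sum_eq_single_of_mem m (Finset.mem_Ico.mpr ⟨le_refl _, hn⟩)]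
      · simp only [g, dif_neg (lt_irrefl m), if_true]
      · intro j hj hjm
        have hj' : ¬ j < m := not_lt.mpr (Finset.mem_Ico.mp hj).1
        simp only [g, dif_neg hj', if_neg hjm]
    rw [e1, ← Finset.sum_range_add_sum_Ico g hn.le, e2, e3]
    ring

end Crest.Agent.Helper57
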