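import Crest.Agent.Helper57.Fan.Cover
import Crest.Agent.Helper57.Fan.Pad

/-!
# Row 211: assembly of the explicit FAN cover

`fan_cover_general` : for parameters `c`, `M`, `r` satisfying the key inequality `KeyProp`, the
tetrahedron `Ktet` is covered by `2 (M + 1)` triangular cylinders whose total Gram area is
`2 √2 ∑ h_i² (τp_i − τm_i) / (2 √(N2_i))`.
-/

set_option autoImplicit false

namespace Crest.Agent.Helper57

open MeasureTheory

theorem fan_cover_general (c : ℝ) (M : ℕ) (r : ℝ) (hM : 0 < M) (hr : 0 ≤ r)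
    (hkey : KeyProp c (1 / (M : ℝ)) r) (m : ℕ) (hm : m = (M + 1) + (M + 1)) :
    ∃ (u p q rr : Fin m → E3), IsCylCover Ktet u p q rr ∧
      ∑ i, triArea (p i) (q i) (rr i) =
        2 * (Real.sqrt 2 * ∑ i ∈ Finset.range (M + 1),
          fH c M r i ^ 2 * (fTp M i - fTm M i) / (2 * Real.sqrt (fN2 c M i))) := by
  classical
  let u₀ : Fin (M + 1) ⊕ Fin (M + 1) → E3 :=
    Sum.elim (fun i => unitV (loN c M i)) (fun i => unitV (upN c M i))
  let p₀ : Fin (M + 1) ⊕ Fin (M + 1) → E3 :=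
    Sum.elim (fun i => projU (unitV (loN c M i)) 0) (fun i => projU (unitV (upN c M i)) upA)
  let q₀ : Fin (M + 1) ⊕ Fin (M + 1) → E3 :=
    Sum.elim (fun i => projU (unitV (loN c M i)) (0 + loW1 c M r i))
      (fun i => projU (unitV (upN c M i)) (upA + upW1 c M r i))
  let r₀ : Fin (M + 1) ⊕ Fin (M + 1) → E3 :=
    Sum.elim (fun i => projU (unitV (loN c M i)) (0 + loW2 c M r i))
      (fun i => projU (unitV (upN c M i)) (upA + upW2 c M r i))
  have hcov : IsCylCover Ktet u₀ p₀ q₀ r₀ := by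
    refine ⟨?_, ?_, ?_⟩
    · rintro (i | i)
      · exact norm_unitV (loN_ne_zero c M i)
      · exact norm_unitV (upN_ne_zero c M i)
    · rintro (i | i)
      · exact ⟨inner_projU _ _ (norm_unitV (loN_ne_zero c M i)),
          inner_projU _ _ (norm_unitV (loN_ne_zero c M i)),
          inner_projU _ _ (norm_unitV (loN_ne_zero c M i))⟩
      · exact ⟨inner_projU _ _ (norm_unitV (upN_ne_zero c M i)),
          inner_projU _ _ (norm_unitV (upN_ne_zero c M i)),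
          inner_projU _ _ (norm_unitV (upN_ne_zero c M i))⟩
    · intro X hX
      rcases fan_covers c M r hM hr hkey hX with ⟨i, hi, hmem⟩ | ⟨i, hi, hmem⟩
      · exact Set.mem_iUnion.mpr ⟨Sum.inl ⟨i, Nat.lt_succ_of_le hi⟩, hmem⟩
      · exact Set.mem_iUnion.mpr ⟨Sum.inr ⟨i, Nat.lt_succ_of_le hi⟩, hmem⟩
  have hcard : Fintype.card (Fin (M + 1) ⊕ Fin (M + 1)) = m := by
    rw [hm]; simp
  obtain ⟨u, p, q, rr, hc, hsum⟩ := reindex_cover hcov hcard
  refine ⟨u, p, q, rr, hc, ?_⟩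
  rw [hsum, Fintype.sum_sum_type]
  have e1 : ∑ i : Fin (M + 1), triArea (p₀ (Sum.inl i)) (q₀ (Sum.inl i)) (r₀ (Sum.inl i))
      = ∑ i ∈ Finset.range (M + 1), Real.sqrt 2 *
          (fH c M r i ^ 2 * (fTp M i - fTm M i) / (2 * Real.sqrt (fN2 c M i))) := by
    rw [← Fin.sum_univ_eq_sum_range (fun i => Real.sqrt 2 *
          (fH c M r i ^ 2 * (fTp M i - fTm M i) / (2 * Real.sqrt (fN2 c M i)))) (M + 1)]
    refine Finset.sum_congr rfl (fun i _ => ?_)
    exact lo_area c M r hM i (Nat.lt_succ_iff.mp i.isLt)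
  have e2 : ∑ i : Fin (M + 1), triArea (p₀ (Sum.inr i)) (q₀ (Sum.inr i)) (r₀ (Sum.inr i))
      = ∑ i ∈ Finset.range (M + 1), Real.sqrt 2 *
          (fH c M r i ^ 2 * (fTp M i - fTm M i) / (2 * Real.sqrt (fN2 c M i))) := by
    rw [← Fin.sum_univ_eq_sum_range (fun i => Real.sqrt 2 *
          (fH c M r i ^ 2 * (fTp M i - fTm M i) / (2 * Real.sqrt (fN2 c M i)))) (M + 1)]
    refine Finset.sum_congr rfl (fun i _ => ?_)
    exact up_area c M r hM i (Nat.lt_succ_iff.mp i.isLt)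
  rw [e1, e2, ← Finset.mul_sum]
  ring

/-- The abstract cost bound (F5) as a property of the constants. -/
def CostProp (c : ℝ) (M : ℕ) (r : ℝ) (B : ℝ) : Prop :=
  ∑ i ∈ Finset.range (M + 1),
    fH c M r i ^ 2 * (fTp M i - fTm M i) / (2 * Real.sqrt (fN2 c M i)) ≤ B

/-- FAN cover with the plan's constants, from (F2) and (F5). -/
theorem fan_cover_of (hkey : KeyProp (1 / 1000) (1 / ((4000000 : ℕ) : ℝ)) ((1 / 1000) ^ 2 / 800))
    (hcost : CostProp (1 / 1000) 4000000 ((1 / 1000) ^ 2 / 800) (1 / 4 - 13 / (48 * 10 ^ 9))) :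
    ∃ (u p q r : Fin 8000002 → E3), IsCylCover Ktet u p q r ∧
      ∑ i, triArea (p i) (q i) (r i) ≤ Real.sqrt 2 * (1 / 2 - 13 / (24 * 10 ^ 9)) := by
  obtain ⟨u, p, q, r, hc, hsum⟩ := fan_cover_general (1 / 1000) 4000000 ((1 / 1000) ^ 2 / 800)
    (by norm_num) (by norm_num) hkey 8000002 (by norm_num)
  refine ⟨u, p, q, r, hc, ?_⟩
  rw [hsum]
  have hs : (0 : ℝ) ≤ Real.sqrt 2 := Real.sqrt_nonneg _
  unfold CostProp at hcost
  nlinarith [mul_le_mul_of_nonneg_left hcost hs]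

/-- Exact-count, exact-area cover for every `0 < ε ≤ 1/2000` (Gram-area form of S0325 (2)). -/
theorem cover_exact_of (hkey : KeyProp (1 / 1000) (1 / ((4000000 : ℕ) : ℝ)) ((1 / 1000) ^ 2 / 800))
    (hcost : CostProp (1 / 1000) 4000000 ((1 / 1000) ^ 2 / 800) (1 / 4 - 13 / (48 * 10 ^ 9)))
    (ε : ℝ) (hε : 0 < ε) (hε' : ε ≤ 1 / 2000) :
    ∃ (u p q r : Fin (2 * ⌈2 / ε ^ 2⌉₊) → E3), IsCylCover Ktet u p q r ∧
      ∑ i, triArea (p i) (q i) (r i) = Real.sqrt 2 * (1 / 2 - 13 / 6000 * ε ^ 2) := by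
  obtain ⟨u, p, q, r, hc, hsum⟩ := fan_cover_of hkey hcost
  have hs : (0 : ℝ) ≤ Real.sqrt 2 := Real.sqrt_nonneg _
  have hε2 : ε ^ 2 ≤ (1 / 2000) ^ 2 := by
    apply pow_le_pow_left₀ hε.le hε'
  have hT : ∑ i, triArea (p i) (q i) (r i) ≤ Real.sqrt 2 * (1 / 2 - 13 / 6000 * ε ^ 2) := by
    refine hsum.trans (mul_le_mul_of_nonneg_left ?_ hs)
    nlinarith
  have hn : 8000002 < 2 * ⌈2 / ε ^ 2⌉₊ := by
    have h1 : (8000000 : ℝ) ≤ 2 / ε ^ 2 := by
      rw [le_div_iff₀ (by positivity)]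
      nlinarith
    have h2 : (8000000 : ℝ) ≤ (⌈2 / ε ^ 2⌉₊ : ℝ) := h1.trans (Nat.le_ceil _)
    have h3 : 8000000 ≤ ⌈2 / ε ^ 2⌉₊ := by exact_mod_cast h2
    omega
  exact pad_cover hc _ hT _ hn

end Crest.Agent.Helper57
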