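import Mathlib

/-!
# Row 211 (tetrahedron cylinder covers): generic geometry for the explicit FAN cover

Measure-free toolkit (helper57):
* `triArea` : Gram area of a triangle;
* `projU u y = y - ⟪y,u⟫ u` and cylinder membership `mem_cyl`;
* `triArea_projU` : Gram area of a projected triangle;
* `mem_Ktet_coords` : coordinates of the points of the standard regular tetrahedron;
* `discrete_ivt`, `reindex_cover`, `pad_cover`.
-/

set_option autoImplicit false

namespace Crest.Agent.Helper57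

/-- Euclidean 3-space. -/
abbrev E3 := EuclideanSpace ℝ (Fin 3)

/-- Gram area of the triangle `p q r`. -/
noncomputable def triArea {E : Type*} [NormedAddCommGroup E] [InnerProductSpace ℝ E] (p q r : E) : ℝ :=
  Real.sqrt (‖q - p‖ ^ 2 * ‖r - p‖ ^ 2 - (inner ℝ (q - p) (r - p)) ^ 2) / 2

theorem triArea_def {E : Type*} [NormedAddCommGroup E] [InnerProductSpace ℝ E] (p q r : E) :
    triArea p q r =
      Real.sqrt (‖q - p‖ ^ 2 * ‖r - p‖ ^ 2 - (inner ℝ (q - p) (r - p)) ^ 2) / 2 := rfl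

theorem triArea_nonneg {E : Type*} [NormedAddCommGroup E] [InnerProductSpace ℝ E] (p q r : E) :
    0 ≤ triArea p q r := by
  unfold triArea; positivity

/-- The standard regular tetrahedron of edge 2. -/
noncomputable def Ktet : Set E3 :=
  convexHull ℝ {!₂[1, 0, 0], !₂[-1, 0, 0], !₂[0, 1, Real.sqrt 2], !₂[0, -1, Real.sqrt 2]}

section generic

variable {E : Type*} [NormedAddCommGroup E] [InnerProductSpace ℝ E]

/-- Orthogonal projection along the (unit) vector `u`. -/
noncomputable def projU (u y : E) : E := y - inner ℝ y u • u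

theorem projU_def (u y : E) : projU u y = y - inner ℝ y u • u := rfl

theorem inner_projU (u y : E) (hu : ‖u‖ = 1) : inner ℝ (projU u y) u = 0 := by
  unfold projU
  rw [inner_sub_left, real_inner_smul_left, real_inner_self_eq_norm_sq, hu]
  ring

theorem projU_add (u x y : E) : projU u (x + y) = projU u x + projU u y := by
  unfold projU
  rw [inner_add_left, add_smul]
  abel

theorem projU_smul (u : E) (a : ℝ) (x : E) : projU u (a • x) = a • projU u x := by
  unfold projU
  rw [real_inner_smul_left, smul_sub, mul_smul]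

theorem projU_zero (u : E) : projU u (0 : E) = 0 := by
  unfold projU
  simp

/-- A convex combination of three points lies in the hull of the triple. -/
theorem combo_mem_convexHull_triple (p q r : E) (a b c : ℝ) (ha : 0 ≤ a) (hb : 0 ≤ b) (hc : 0 ≤ c)
    (habc : a + b + c = 1) : a • p + b • q + c • r ∈ convexHull ℝ ({p, q, r} : Set E) := by
  have hp : p ∈ convexHull ℝ ({p, q, r} : Set E) := subset_convexHull ℝ _ (by simp)
  have hq : q ∈ convexHull ℝ ({p, q, r} : Set E) := subset_convexHull ℝ _ (by simp)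
  have hr : r ∈ convexHull ℝ ({p, q, r} : Set E) := subset_convexHull ℝ _ (by simp)
  have hconv := convex_convexHull ℝ ({p, q, r} : Set E)
  rcases eq_or_lt_of_le hc with hc0 | hcpos
  · rw [← hc0, zero_smul, add_zero]
    exact hconv hp hq ha hb (by linarith)
  · have hab : a + b = 1 - c := by linarith
    rcases eq_or_lt_of_le (add_nonneg ha hb) with h0 | hpos
    · have ha0 : a = 0 := by linarith
      have hb0 : b = 0 := by linarith
      have hc1 : c = 1 := by linarith
      rw [ha0, hb0, hc1]; simpa using hr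
    · have h1 : (a / (a + b)) • p + (b / (a + b)) • q ∈ convexHull ℝ ({p, q, r} : Set E) :=
        hconv hp hq (by positivity) (by positivity) (by field_simp)
      have h2 := hconv h1 hr (add_nonneg ha hb) hc habc
      have e : (a + b) • ((a / (a + b)) • p + (b / (a + b)) • q) + c • r = a • p + b • q + c • r := by
        rw [smul_add, smul_smul, smul_smul]
        congr 2 <;> · congr 1; field_simp
      rwa [e] at h2

/-- Cylinder membership: a point `A + a W₁ + b W₂ + s u` with `a, b ≥ 0`, `a + b ≤ 1` lies in the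
cylinder with axis `u` over the projected triangle. -/
theorem mem_cyl (u A W1 W2 : E) (a b s : ℝ) (ha : 0 ≤ a) (hb : 0 ≤ b) (hab : a + b ≤ 1) :
    A + a • W1 + b • W2 + s • u ∈
      {y : E | ∃ z ∈ convexHull ℝ ({projU u A, projU u (A + W1), projU u (A + W2)} : Set E),
        ∃ t : ℝ, y = z + t • u} := by
  refine ⟨(1 - a - b) • projU u A + a • projU u (A + W1) + b • projU u (A + W2),
    combo_mem_convexHull_triple _ _ _ _ _ _ (by linarith) ha hb (by ring),
    inner ℝ (A + a • W1 + b • W2) u + s, ?_⟩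
  have e : (1 - a - b) • projU u A + a • projU u (A + W1) + b • projU u (A + W2)
      = projU u (A + a • W1 + b • W2) := by
    simp only [projU_add, projU_smul]
    module
  rw [e, projU_def, add_smul]
  abel

/-- Gram determinant of a projected pair. -/
theorem gram_projU (u x y : E) (hu : ‖u‖ = 1) :
    ‖projU u x‖ ^ 2 * ‖projU u y‖ ^ 2 - (inner ℝ (projU u x) (projU u y)) ^ 2 =
      ‖x‖ ^ 2 * ‖y‖ ^ 2 - (inner ℝ x y) ^ 2
        - (‖y‖ ^ 2 * (inner ℝ x u) ^ 2 + ‖x‖ ^ 2 * (inner ℝ y u) ^ 2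
            - 2 * inner ℝ x y * inner ℝ x u * inner ℝ y u) := by
  have huu : inner ℝ u u = (1 : ℝ) := by rw [real_inner_self_eq_norm_sq, hu]; norm_num
  have h1 : ∀ z : E, ‖projU u z‖ ^ 2 = ‖z‖ ^ 2 - (inner ℝ z u) ^ 2 := by
    intro z
    rw [← real_inner_self_eq_norm_sq, ← real_inner_self_eq_norm_sq, projU_def]
    simp only [inner_sub_left, inner_sub_right, real_inner_smul_left, real_inner_smul_right, huu]
    rw [real_inner_comm z u]
    ring
  have h2 : inner ℝ (projU u x) (projU u y) = inner ℝ x y - inner ℝ x u * inner ℝ y u := by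
    rw [projU_def, projU_def]
    simp only [inner_sub_left, inner_sub_right, real_inner_smul_left, real_inner_smul_right, huu]
    rw [real_inner_comm y u]
    ring
  rw [h1, h1, h2]
  ring

/-- Gram area of the projected triangle `P A, P (A + W₁), P (A + W₂)`. -/
theorem triArea_projU (u A W1 W2 : E) (hu : ‖u‖ = 1) :
    triArea (projU u A) (projU u (A + W1)) (projU u (A + W2)) =
      Real.sqrt (‖W1‖ ^ 2 * ‖W2‖ ^ 2 - (inner ℝ W1 W2) ^ 2
        - (‖W2‖ ^ 2 * (inner ℝ W1 u) ^ 2 + ‖W1‖ ^ 2 * (inner ℝ W2 u) ^ 2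
            - 2 * inner ℝ W1 W2 * inner ℝ W1 u * inner ℝ W2 u)) / 2 := by
  unfold triArea
  rw [projU_add, projU_add, add_sub_cancel_left, add_sub_cancel_left, gram_projU u W1 W2 hu]

end generic

/-- Discrete intermediate value principle on shared lines. -/
theorem discrete_ivt (Lo Up : ℕ → ℝ) (M : ℕ) (h0 : 0 ≤ Lo 0) (hM : Up M ≤ 0)
    (hstep : ∀ j < M, Up j = Lo (j + 1)) : ∃ i ≤ M, 0 ≤ Lo i ∧ Up i ≤ 0 := by
  have key : ∀ m ≤ M, (∃ i ≤ m, 0 ≤ Lo i ∧ Up i ≤ 0) ∨ 0 < Up m := by
    intro m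
    induction m with
    | zero =>
      intro _
      rcases le_or_gt (Up 0) 0 with h | h
      · exact Or.inl ⟨0, le_refl _, h0, h⟩
      · exact Or.inr h
    | succ m ih =>
      intro hm
      rcases ih (by omega) with ⟨i, hi, h⟩ | h
      · exact Or.inl ⟨i, by omega, h⟩
      · rw [hstep m (by omega)] at h
        rcases le_or_gt (Up (m + 1)) 0 with h' | h'
        · exact Or.inl ⟨m + 1, le_refl _, h.le, h'⟩
        · exact Or.inr h'
  rcases key M (le_refl _) with h | h
  · exact h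
  · exact absurd hM (not_le.mpr h)

/-- Coordinates of a point of `E3`. -/
theorem E3_ext {X Y : E3} (h0 : X 0 = Y 0) (h1 : X 1 = Y 1) (h2 : X 2 = Y 2) : X = Y := by
  ext i
  fin_cases i
  · exact h0
  · exact h1
  · exact h2

theorem E3_inner (a b : E3) : inner ℝ a b = a 0 * b 0 + a 1 * b 1 + a 2 * b 2 := by
  simp [EuclideanSpace.inner_eq_star_dotProduct, Fin.sum_univ_three, dotProduct]
  ring

theorem E3_norm_sq (a : E3) : ‖a‖ ^ 2 = a 0 ^ 2 + a 1 ^ 2 + a 2 ^ 2 := by
  rw [EuclideanSpace.norm_eq, Real.sq_sqrt (by positivity)]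
  simp [Fin.sum_univ_three]

/-- Coordinates of the points of the standard tetrahedron. -/
theorem mem_Ktet_coords {X : E3} (hX : X ∈ Ktet) :
    ∃ t : ℝ, 0 ≤ t ∧ t ≤ 1 ∧ X 2 = Real.sqrt 2 * t ∧ |X 0| ≤ 1 - t ∧ |X 1| ≤ t := by
  have hs2 : (0 : ℝ) < Real.sqrt 2 := by positivity
  have hs22 : Real.sqrt 2 * Real.sqrt 2 = 2 := Real.mul_self_sqrt (by norm_num)
  let S : Set E3 := {X | 0 ≤ X 2 ∧ X 2 ≤ Real.sqrt 2 ∧ Real.sqrt 2 * X 0 ≤ Real.sqrt 2 - X 2 ∧
    -(Real.sqrt 2 * X 0) ≤ Real.sqrt 2 - X 2 ∧ Real.sqrt 2 * X 1 ≤ X 2 ∧ -(Real.sqrt 2 * X 1) ≤ X 2}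
  have hconv : Convex ℝ S := by
    intro X hX Y hY a b ha hb hab
    obtain ⟨x1, x2, x3, x4, x5, x6⟩ := hX
    obtain ⟨y1, y2, y3, y4, y5, y6⟩ := hY
    have e : ∀ i : Fin 3, (a • X + b • Y) i = a * X i + b * Y i := by
      intro i; simp
    have hb' : b = 1 - a := by linarith
    refine ⟨?_, ?_, ?_, ?_, ?_, ?_⟩
    · rw [e]; positivity
    · rw [e]; nlinarith
    · rw [e, e]; nlinarith
    · rw [e, e]; nlinarith
    · rw [e, e]; nlinarith
    · rw [e, e]; nlinarith
  have hsub : ({!₂[1, 0, 0], !₂[-1, 0, 0], !₂[0, 1, Real.sqrt 2], !₂[0, -1, Real.sqrt 2]} : Set E3) ⊆ S := by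
    intro Z hZ
    simp only [Set.mem_insert_iff, Set.mem_singleton_iff] at hZ
    rcases hZ with rfl | rfl | rfl | rfl
    · refine ⟨?_, ?_, ?_, ?_, ?_, ?_⟩ <;> simp
    · refine ⟨?_, ?_, ?_, ?_, ?_, ?_⟩ <;> simp
    · refine ⟨?_, ?_, ?_, ?_, ?_, ?_⟩ <;> simp
    · refine ⟨?_, ?_, ?_, ?_, ?_, ?_⟩ <;> simp
  obtain ⟨x1, x2, x3, x4, x5, x6⟩ := convexHull_min hsub hconv hX
  have ht : X 2 = Real.sqrt 2 * (X 2 / Real.sqrt 2) := by field_simp
  set t : ℝ := X 2 / Real.sqrt 2 with htdef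
  have h1 : 0 ≤ t := by positivity
  have h2 : t ≤ 1 := by rw [htdef, div_le_one hs2]; exact x2
  rw [ht] at x3 x4 x5 x6
  have h3 : X 0 ≤ 1 - t := le_of_mul_le_mul_left (by linarith) hs2
  have h4 : -(1 - t) ≤ X 0 := le_of_mul_le_mul_left (by linarith) hs2
  have h5 : X 1 ≤ t := le_of_mul_le_mul_left (by linarith) hs2
  have h6 : -t ≤ X 1 := le_of_mul_le_mul_left (by linarith) hs2
  exact ⟨t, h1, h2, ht, abs_le.mpr ⟨h4, h3⟩, abs_le.mpr ⟨h6, h5⟩⟩

end Crest.Agent.Helper57
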