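import Crest.Agent.Helper57.Fan.Basic

/-!
# Row 211: the explicit FAN cover of the standard tetrahedron (geometry)

Lead-plan track: constants `c`, `M`, `r` are parameters here; the key real inequality (F2) enters as the
hypothesis `KeyProp`.  Main result: `fan_cover_general`.
-/

set_option autoImplicit false

namespace Crest.Agent.Helper57

/-- normalisation of a vector -/
noncomputable def unitV (n : E3) : E3 := ‖n‖⁻¹ • n

theorem norm_unitV {n : E3} (hn : n ≠ 0) : ‖unitV n‖ = 1 := by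
  unfold unitV
  rw [norm_smul, norm_inv, norm_norm, inv_mul_cancel₀ (norm_ne_zero_iff.mpr hn)]

theorem smul_unitV {n : E3} (hn : n ≠ 0) (x : ℝ) : (x * ‖n‖) • unitV n = x • n := by
  unfold unitV
  rw [smul_smul, mul_assoc, mul_inv_cancel₀ (norm_ne_zero_iff.mpr hn), mul_one]

theorem inner_unitV (n W : E3) : inner ℝ W (unitV n) = ‖n‖⁻¹ * inner ℝ W n := by
  unfold unitV
  rw [real_inner_smul_right]

/-- Gram area of the base of a cylinder with axis direction `n`. -/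
theorem triArea_cyl (n A W1 W2 : E3) (D : ℝ) (hD : 0 ≤ D) (hn : n ≠ 0)
    (h : ‖n‖ ^ 2 * (‖W1‖ ^ 2 * ‖W2‖ ^ 2 - (inner ℝ W1 W2) ^ 2)
        - (‖W2‖ ^ 2 * (inner ℝ W1 n) ^ 2 + ‖W1‖ ^ 2 * (inner ℝ W2 n) ^ 2
            - 2 * inner ℝ W1 W2 * inner ℝ W1 n * inner ℝ W2 n) = D ^ 2) :
    triArea (projU (unitV n) A) (projU (unitV n) (A + W1)) (projU (unitV n) (A + W2))
      = D / (2 * ‖n‖) := by
  have hn0 : ‖n‖ ≠ 0 := norm_ne_zero_iff.mpr hn
  have hnpos : 0 < ‖n‖ := norm_pos_iff.mpr hn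
  rw [triArea_projU _ _ _ _ (norm_unitV hn), inner_unitV, inner_unitV]
  have e : ‖W1‖ ^ 2 * ‖W2‖ ^ 2 - (inner ℝ W1 W2) ^ 2
      - (‖W2‖ ^ 2 * (‖n‖⁻¹ * inner ℝ W1 n) ^ 2 + ‖W1‖ ^ 2 * (‖n‖⁻¹ * inner ℝ W2 n) ^ 2
          - 2 * inner ℝ W1 W2 * (‖n‖⁻¹ * inner ℝ W1 n) * (‖n‖⁻¹ * inner ℝ W2 n))
      = (D / ‖n‖) ^ 2 := by
    rw [div_pow, ← h]
    field_simp
  rw [e, Real.sqrt_sq (by positivity)]
  field_simp

/-- The saddle function separating the two halves. -/
noncomputable def fphi (c x y : ℝ) : ℝ :=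
  c * x * y + (c ^ 2 / 4) * (y ^ 2 - x ^ 2) + (c ^ 2 / 2) * (y ^ 4 - x ^ 4)

theorem fphi_rot (c x y : ℝ) : fphi c y (-x) = -fphi c x y := by
  unfold fphi; ring

/-- The key real inequality (F2) as a property of the constants. -/
def KeyProp (c δ r : ℝ) : Prop :=
  ∀ s τm τp x y t : ℝ, |s| ≤ 1 → s - δ ≤ τm → τm ≤ τp → τp ≤ s + δ → |τm| ≤ 1 → |τp| ≤ 1 →
    0 ≤ t → |x| ≤ 1 - t → |y| ≤ t → t ≤ 1 / 2 + fphi c x y →
    τm * (t - x * (c * s / 2)) ≤ y - x * (c / 4 * (1 + s ^ 2)) →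
    y - x * (c / 4 * (1 + s ^ 2)) ≤ τp * (t - x * (c * s / 2)) →
    t - x * (c * s / 2) ≤ 1 / 2 + (c ^ 2 / 16) * (s ^ 2 + s ^ 4) + r

section defs

variable (c : ℝ) (M : ℕ) (r : ℝ)

/-- tag of sector `i` -/
noncomputable def fS (i : ℕ) : ℝ := -1 + 2 * (i : ℝ) / (M : ℝ)
/-- lower slope of sector `i` -/
noncomputable def fTm (i : ℕ) : ℝ := max (-1) (fS M i - 1 / (M : ℝ))
/-- upper slope of sector `i` -/
noncomputable def fTp (i : ℕ) : ℝ := min 1 (fS M i + 1 / (M : ℝ))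
/-- tilt of the axis, `y`-component -/
noncomputable def fWy (i : ℕ) : ℝ := c / 4 * (1 + fS M i ^ 2)
/-- tilt of the axis, `t`-component -/
noncomputable def fWt (i : ℕ) : ℝ := c * fS M i / 2
/-- cap of sector `i` -/
noncomputable def fH (i : ℕ) : ℝ := 1 / 2 + (c ^ 2 / 16) * (fS M i ^ 2 + fS M i ^ 4) + r
/-- squared norm of the axis of sector `i` -/
noncomputable def fN2 (i : ℕ) : ℝ := 1 + (c ^ 2 / 16) * (1 + 10 * fS M i ^ 2 + fS M i ^ 4)

theorem fS_zero : fS M 0 = -1 := by simp [fS]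

theorem fS_last (hM : 0 < M) : fS M M = 1 := by
  have : (M : ℝ) ≠ 0 := by positivity
  unfold fS; field_simp; ring

theorem fS_succ (hM : 0 < M) (i : ℕ) : fS M (i + 1) = fS M i + 2 / (M : ℝ) := by
  have : (M : ℝ) ≠ 0 := by positivity
  unfold fS; push_cast; field_simp; ring

theorem fS_mem (hM : 0 < M) {i : ℕ} (hi : i ≤ M) : -1 ≤ fS M i ∧ fS M i ≤ 1 := by
  have hMpos : (0 : ℝ) < M := by positivity
  have hi' : (i : ℝ) ≤ M := by exact_mod_cast hi
  have h0 : (0 : ℝ) ≤ i := by positivity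
  unfold fS
  constructor
  · have : 0 ≤ 2 * (i : ℝ) / M := by positivity
    linarith
  · have : 2 * (i : ℝ) / M ≤ 2 := by rw [div_le_iff₀ hMpos]; linarith
    linarith

theorem fS_lt_last (hM : 0 < M) {i : ℕ} (hi : i < M) : fS M i + 2 / (M : ℝ) ≤ 1 := by
  rw [← fS_succ M hM i]
  exact (fS_mem M hM (by omega)).2

theorem fTm_zero (hM : 0 < M) : fTm M 0 = -1 := by
  have hMpos : (0 : ℝ) < M := by positivity
  have : (0 : ℝ) < 1 / (M : ℝ) := by positivity
  unfold fTm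
  rw [fS_zero]
  exact max_eq_left (by linarith)

theorem fTp_last (hM : 0 < M) : fTp M M = 1 := by
  have hMpos : (0 : ℝ) < M := by positivity
  have : (0 : ℝ) < 1 / (M : ℝ) := by positivity
  unfold fTp
  rw [fS_last M hM]
  exact min_eq_left (by linarith)

theorem fTp_of_lt (hM : 0 < M) {i : ℕ} (hi : i < M) : fTp M i = fS M i + 1 / (M : ℝ) := by
  have hMpos : (0 : ℝ) < M := by positivity
  have h1 : (0 : ℝ) < 1 / (M : ℝ) := by positivity
  have h2 := fS_lt_last M hM hi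
  have h3 : 2 / (M : ℝ) = 1 / (M : ℝ) + 1 / (M : ℝ) := by ring
  unfold fTp
  exact min_eq_right (by linarith)

theorem fTm_succ (hM : 0 < M) (i : ℕ) : fTm M (i + 1) = fS M i + 1 / (M : ℝ) := by
  have hMpos : (0 : ℝ) < M := by positivity
  have h1 : (0 : ℝ) < 1 / (M : ℝ) := by positivity
  have h3 : 2 / (M : ℝ) = 1 / (M : ℝ) + 1 / (M : ℝ) := by ring
  have h0 : (0 : ℝ) ≤ 2 * (i : ℝ) / M := by positivity
  have h4 : -1 ≤ fS M i := by unfold fS; linarith
  unfold fTm
  rw [fS_succ M hM i, max_eq_right (by linarith)]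
  linarith

/-- basic bounds on the slopes of sector `i ≤ M` -/
theorem fT_bounds (hM : 0 < M) {i : ℕ} (hi : i ≤ M) :
    fS M i - 1 / (M : ℝ) ≤ fTm M i ∧ fTm M i < fTp M i ∧ fTp M i ≤ fS M i + 1 / (M : ℝ) ∧
      |fTm M i| ≤ 1 ∧ |fTp M i| ≤ 1 ∧ |fS M i| ≤ 1 := by
  have hMpos : (0 : ℝ) < M := by positivity
  have h1 : (0 : ℝ) < 1 / (M : ℝ) := by positivity
  obtain ⟨hs1, hs2⟩ := fS_mem M hM hi
  have a1 : fS M i - 1 / (M : ℝ) ≤ fTm M i := le_max_right _ _
  have a2 : -1 ≤ fTm M i := le_max_left _ _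
  have a3 : fTm M i ≤ fS M i := max_le hs1 (by linarith)
  have b1 : fTp M i ≤ fS M i + 1 / (M : ℝ) := min_le_right _ _
  have b2 : fTp M i ≤ 1 := min_le_left _ _
  have b3 : fS M i ≤ fTp M i := le_min hs2 (by linarith)
  have hlt : fTm M i < fTp M i := by
    rcases lt_or_eq_of_le hs2 with h | h
    · have : fS M i < fTp M i := lt_min h (by linarith)
      linarith
    · have : fTm M i < fS M i := max_lt (by linarith) (by linarith)
      linarith
  exact ⟨a1, hlt, b1, abs_le.mpr ⟨a2, by linarith⟩, abs_le.mpr ⟨by linarith, b2⟩,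
    abs_le.mpr ⟨hs1, hs2⟩⟩

theorem fH_pos (hr : 0 ≤ r) (i : ℕ) : 0 < fH c M r i := by
  unfold fH; positivity

theorem fN2_pos (i : ℕ) : 0 < fN2 c M i := by
  unfold fN2; positivity

/-- (F1) every point with `|y| ≤ t` lies in some sector. -/
theorem fan_sector (hM : 0 < M) (x y t : ℝ) (hy : |y| ≤ t) :
    ∃ i ≤ M, fTm M i * (t - x * fWt c M i) ≤ y - x * fWy c M i ∧
      y - x * fWy c M i ≤ fTp M i * (t - x * fWt c M i) := by
  obtain ⟨hy1, hy2⟩ := abs_le.mp hy
  have hMne : (M : ℝ) ≠ 0 := by positivity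
  have key := discrete_ivt
    (fun j => (y - x * fWy c M j) - fTm M j * (t - x * fWt c M j))
    (fun j => (y - x * fWy c M j) - fTp M j * (t - x * fWt c M j)) M ?_ ?_ ?_
  · obtain ⟨i, hi, h1, h2⟩ := key
    exact ⟨i, hi, by linarith, by linarith⟩
  · show 0 ≤ (y - x * fWy c M 0) - fTm M 0 * (t - x * fWt c M 0)
    rw [fTm_zero M hM]
    unfold fWy fWt
    rw [fS_zero]
    ring_nf
    linarith
  · show (y - x * fWy c M M) - fTp M M * (t - x * fWt c M M) ≤ 0
    rw [fTp_last M hM]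
    unfold fWy fWt
    rw [fS_last M hM]
    ring_nf
    linarith
  · intro j hj
    show (y - x * fWy c M j) - fTp M j * (t - x * fWt c M j)
      = (y - x * fWy c M (j + 1)) - fTm M (j + 1) * (t - x * fWt c M (j + 1))
    rw [fTp_of_lt M hM hj, fTm_succ M hM j]
    unfold fWy fWt
    rw [fS_succ M hM j]
    ring

end defs

/-- coefficients of a point of a sector with respect to the two edge vectors -/
theorem sector_coeffs (τm τp ρ Y h : ℝ) (hd : τm < τp) (hh : 0 < h) (hlo : τm * ρ ≤ Y)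
    (hhi : Y ≤ τp * ρ) (hρ : ρ ≤ h) :
    ∃ a b : ℝ, 0 ≤ a ∧ 0 ≤ b ∧ a + b ≤ 1 ∧ a * (h * τm) + b * (h * τp) = Y ∧ a * h + b * h = ρ := by
  have hd' : 0 < τp - τm := by linarith
  have hdh : 0 < (τp - τm) * h := by positivity
  refine ⟨(τp * ρ - Y) / ((τp - τm) * h), (Y - τm * ρ) / ((τp - τm) * h), ?_, ?_, ?_, ?_, ?_⟩
  · exact div_nonneg (by linarith) hdh.le
  · exact div_nonneg (by linarith) hdh.le
  · rw [← add_div, div_le_one hdh]
    nlinarith
  · field_simp
    ring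
  · field_simp
    ring

section vectors

variable (c : ℝ) (M : ℕ) (r : ℝ)

/-- axis direction of lower cylinder `i` -/
noncomputable def loN (i : ℕ) : E3 := !₂[1, fWy c M i, Real.sqrt 2 * fWt c M i]
/-- first edge vector of the slice triangle of lower cylinder `i` -/
noncomputable def loW1 (i : ℕ) : E3 := !₂[0, fH c M r i * fTm M i, fH c M r i * Real.sqrt 2]
/-- second edge vector of the slice triangle of lower cylinder `i` -/
noncomputable def loW2 (i : ℕ) : E3 := !₂[0, fH c M r i * fTp M i, fH c M r i * Real.sqrt 2]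
/-- axis direction of upper cylinder `i` -/
noncomputable def upN (i : ℕ) : E3 := !₂[-fWy c M i, 1, -(Real.sqrt 2 * fWt c M i)]
/-- apex of the slice triangles of the upper cylinders -/
noncomputable def upA : E3 := !₂[0, 0, Real.sqrt 2]
/-- first edge vector of the slice triangle of upper cylinder `i` -/
noncomputable def upW1 (i : ℕ) : E3 := !₂[-(fH c M r i * fTm M i), 0, -(fH c M r i * Real.sqrt 2)]
/-- second edge vector of the slice triangle of upper cylinder `i` -/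
noncomputable def upW2 (i : ℕ) : E3 := !₂[-(fH c M r i * fTp M i), 0, -(fH c M r i * Real.sqrt 2)]

theorem sqrt2_mul_self : Real.sqrt 2 * Real.sqrt 2 = 2 := Real.mul_self_sqrt (by norm_num)

theorem loN_norm_sq (i : ℕ) : ‖loN c M i‖ ^ 2 = fN2 c M i := by
  rw [E3_norm_sq]
  simp [loN]
  unfold fN2 fWy fWt
  linear_combination (c * fS M i / 2) ^ 2 * sqrt2_mul_self

theorem upN_norm_sq (i : ℕ) : ‖upN c M i‖ ^ 2 = fN2 c M i := by
  rw [E3_norm_sq]
  simp [upN]
  unfold fN2 fWy fWt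
  linear_combination (c * fS M i / 2) ^ 2 * sqrt2_mul_self

theorem loN_ne_zero (i : ℕ) : loN c M i ≠ 0 := by
  intro h
  have := loN_norm_sq c M i
  rw [h, norm_zero] at this
  have h2 := fN2_pos c M i
  nlinarith

theorem upN_ne_zero (i : ℕ) : upN c M i ≠ 0 := by
  intro h
  have := upN_norm_sq c M i
  rw [h, norm_zero] at this
  have h2 := fN2_pos c M i
  nlinarith

theorem loN_norm (i : ℕ) : ‖loN c M i‖ = Real.sqrt (fN2 c M i) := by
  rw [← loN_norm_sq, Real.sqrt_sq (norm_nonneg _)]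

theorem upN_norm (i : ℕ) : ‖upN c M i‖ = Real.sqrt (fN2 c M i) := by
  rw [← upN_norm_sq, Real.sqrt_sq (norm_nonneg _)]

/-- the polynomial identity behind the base areas -/
theorem area_identity (h τm τp wy wt : ℝ) :
    (1 + wy ^ 2 + 2 * wt ^ 2) * ((h ^ 2 * (τm ^ 2 + 2)) * (h ^ 2 * (τp ^ 2 + 2))
        - (h ^ 2 * (τm * τp + 2)) ^ 2)
      - ((h ^ 2 * (τp ^ 2 + 2)) * (h * (τm * wy + 2 * wt)) ^ 2
          + (h ^ 2 * (τm ^ 2 + 2)) * (h * (τp * wy + 2 * wt)) ^ 2
          - 2 * (h ^ 2 * (τm * τp + 2)) * (h * (τm * wy + 2 * wt)) * (h * (τp * wy + 2 * wt)))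
      = 2 * (h ^ 2 * (τp - τm)) ^ 2 := by
  ring

/-- Gram area of the base of lower cylinder `i`. -/
theorem lo_area (hM : 0 < M) (i : ℕ) (hi : i ≤ M) :
    triArea (projU (unitV (loN c M i)) 0) (projU (unitV (loN c M i)) (0 + loW1 c M r i))
        (projU (unitV (loN c M i)) (0 + loW2 c M r i))
      = Real.sqrt 2 * (fH c M r i ^ 2 * (fTp M i - fTm M i) / (2 * Real.sqrt (fN2 c M i))) := by
  obtain ⟨_, hlt, _, _, _, _⟩ := fT_bounds M hM hi
  have hD : 0 ≤ Real.sqrt 2 * (fH c M r i ^ 2 * (fTp M i - fTm M i)) := by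
    have : 0 ≤ fTp M i - fTm M i := by linarith
    positivity
  rw [triArea_cyl (loN c M i) 0 (loW1 c M r i) (loW2 c M r i) _ hD (loN_ne_zero c M i), loN_norm]
  · ring
  · have hn2 : ‖loN c M i‖ ^ 2 = 1 + fWy c M i ^ 2 + 2 * fWt c M i ^ 2 := by
      rw [E3_norm_sq]; simp [loN]
      linear_combination (fWt c M i) ^ 2 * sqrt2_mul_self
    have hW1 : ‖loW1 c M r i‖ ^ 2 = fH c M r i ^ 2 * (fTm M i ^ 2 + 2) := by
      rw [E3_norm_sq]; simp [loW1]
      linear_combination (fH c M r i) ^ 2 * sqrt2_mul_self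
    have hW2 : ‖loW2 c M r i‖ ^ 2 = fH c M r i ^ 2 * (fTp M i ^ 2 + 2) := by
      rw [E3_norm_sq]; simp [loW2]
      linear_combination (fH c M r i) ^ 2 * sqrt2_mul_self
    have hW12 : inner ℝ (loW1 c M r i) (loW2 c M r i) = fH c M r i ^ 2 * (fTm M i * fTp M i + 2) := by
      rw [E3_inner]; simp [loW1, loW2]
      linear_combination (fH c M r i) ^ 2 * sqrt2_mul_self
    have hW1n : inner ℝ (loW1 c M r i) (loN c M i)
        = fH c M r i * (fTm M i * fWy c M i + 2 * fWt c M i) := by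
      rw [E3_inner]; simp [loW1, loN]
      linear_combination (fH c M r i * fWt c M i) * sqrt2_mul_self
    have hW2n : inner ℝ (loW2 c M r i) (loN c M i)
        = fH c M r i * (fTp M i * fWy c M i + 2 * fWt c M i) := by
      rw [E3_inner]; simp [loW2, loN]
      linear_combination (fH c M r i * fWt c M i) * sqrt2_mul_self
    rw [hn2, hW1, hW2, hW12, hW1n, hW2n, area_identity]
    linear_combination (-(fH c M r i ^ 2 * (fTp M i - fTm M i)) ^ 2) * sqrt2_mul_self

/-- Gram area of the base of upper cylinder `i`. -/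
theorem up_area (hM : 0 < M) (i : ℕ) (hi : i ≤ M) :
    triArea (projU (unitV (upN c M i)) upA) (projU (unitV (upN c M i)) (upA + upW1 c M r i))
        (projU (unitV (upN c M i)) (upA + upW2 c M r i))
      = Real.sqrt 2 * (fH c M r i ^ 2 * (fTp M i - fTm M i) / (2 * Real.sqrt (fN2 c M i))) := by
  obtain ⟨_, hlt, _, _, _, _⟩ := fT_bounds M hM hi
  have hD : 0 ≤ Real.sqrt 2 * (fH c M r i ^ 2 * (fTp M i - fTm M i)) := by
    have : 0 ≤ fTp M i - fTm M i := by linarith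
    positivity
  rw [triArea_cyl (upN c M i) upA (upW1 c M r i) (upW2 c M r i) _ hD (upN_ne_zero c M i), upN_norm]
  · ring
  · have hn2 : ‖upN c M i‖ ^ 2 = 1 + fWy c M i ^ 2 + 2 * fWt c M i ^ 2 := by
      rw [E3_norm_sq]; simp [upN]
      linear_combination (fWt c M i) ^ 2 * sqrt2_mul_self
    have hW1 : ‖upW1 c M r i‖ ^ 2 = fH c M r i ^ 2 * (fTm M i ^ 2 + 2) := by
      rw [E3_norm_sq]; simp [upW1]
      linear_combination (fH c M r i) ^ 2 * sqrt2_mul_self
    have hW2 : ‖upW2 c M r i‖ ^ 2 = fH c M r i ^ 2 * (fTp M i ^ 2 + 2) := by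
      rw [E3_norm_sq]; simp [upW2]
      linear_combination (fH c M r i) ^ 2 * sqrt2_mul_self
    have hW12 : inner ℝ (upW1 c M r i) (upW2 c M r i) = fH c M r i ^ 2 * (fTm M i * fTp M i + 2) := by
      rw [E3_inner]; simp [upW1, upW2]
      linear_combination (fH c M r i) ^ 2 * sqrt2_mul_self
    have hW1n : inner ℝ (upW1 c M r i) (upN c M i)
        = fH c M r i * (fTm M i * fWy c M i + 2 * fWt c M i) := by
      rw [E3_inner]; simp [upW1, upN]
      linear_combination (fH c M r i * fWt c M i) * sqrt2_mul_self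
    have hW2n : inner ℝ (upW2 c M r i) (upN c M i)
        = fH c M r i * (fTp M i * fWy c M i + 2 * fWt c M i) := by
      rw [E3_inner]; simp [upW2, upN]
      linear_combination (fH c M r i * fWt c M i) * sqrt2_mul_self
    rw [hn2, hW1, hW2, hW12, hW1n, hW2n, area_identity]
    linear_combination (-(fH c M r i ^ 2 * (fTp M i - fTm M i)) ^ 2) * sqrt2_mul_self

/-- (F3) membership in lower cylinder `i`. -/
theorem lower_mem (hM : 0 < M) (hr : 0 ≤ r) (x y t : ℝ) (i : ℕ) (hi : i ≤ M)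
    (hlo : fTm M i * (t - x * fWt c M i) ≤ y - x * fWy c M i)
    (hhi : y - x * fWy c M i ≤ fTp M i * (t - x * fWt c M i))
    (hρ : t - x * fWt c M i ≤ fH c M r i) :
    (!₂[x, y, Real.sqrt 2 * t] : E3) ∈
      {z : E3 | ∃ b ∈ convexHull ℝ ({projU (unitV (loN c M i)) 0,
          projU (unitV (loN c M i)) (0 + loW1 c M r i),
          projU (unitV (loN c M i)) (0 + loW2 c M r i)} : Set E3),
        ∃ s : ℝ, z = b + s • unitV (loN c M i)} := by
  obtain ⟨_, hlt, _, _, _, _⟩ := fT_bounds M hM hi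
  obtain ⟨a, b, ha, hb, hab, e1, e2⟩ :=
    sector_coeffs _ _ _ _ _ hlt (fH_pos c M r hr i) hlo hhi hρ
  have hmem := mem_cyl (unitV (loN c M i)) 0 (loW1 c M r i) (loW2 c M r i) a b
    (x * ‖loN c M i‖) ha hb hab
  rw [smul_unitV (loN_ne_zero c M i)] at hmem
  have e : (!₂[x, y, Real.sqrt 2 * t] : E3)
      = 0 + a • loW1 c M r i + b • loW2 c M r i + x • loN c M i := by
    apply E3_ext
    · simp [loN, loW1, loW2]
    · simp [loN, loW1, loW2]
      linear_combination -e1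
    · simp [loN, loW1, loW2]
      linear_combination (-Real.sqrt 2) * e2
  rw [e]
  exact hmem

/-- (F4) membership in upper cylinder `i` (the point is the image of `(x'', y'', t'')` under the
symmetry `(x, y, t) ↦ (-y, x, 1 - t)` of the tetrahedron). -/
theorem upper_mem (hM : 0 < M) (hr : 0 ≤ r) (x y t : ℝ) (i : ℕ) (hi : i ≤ M)
    (hlo : fTm M i * (t - x * fWt c M i) ≤ y - x * fWy c M i)
    (hhi : y - x * fWy c M i ≤ fTp M i * (t - x * fWt c M i))
    (hρ : t - x * fWt c M i ≤ fH c M r i) :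
    (!₂[-y, x, Real.sqrt 2 * (1 - t)] : E3) ∈
      {z : E3 | ∃ b ∈ convexHull ℝ ({projU (unitV (upN c M i)) upA,
          projU (unitV (upN c M i)) (upA + upW1 c M r i),
          projU (unitV (upN c M i)) (upA + upW2 c M r i)} : Set E3),
        ∃ s : ℝ, z = b + s • unitV (upN c M i)} := by
  obtain ⟨_, hlt, _, _, _, _⟩ := fT_bounds M hM hi
  obtain ⟨a, b, ha, hb, hab, e1, e2⟩ :=
    sector_coeffs _ _ _ _ _ hlt (fH_pos c M r hr i) hlo hhi hρ
  have hmem := mem_cyl (unitV (upN c M i)) upA (upW1 c M r i) (upW2 c M r i) a b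
    (x * ‖upN c M i‖) ha hb hab
  rw [smul_unitV (upN_ne_zero c M i)] at hmem
  have e : (!₂[-y, x, Real.sqrt 2 * (1 - t)] : E3)
      = upA + a • upW1 c M r i + b • upW2 c M r i + x • upN c M i := by
    apply E3_ext
    · simp [upN, upW1, upW2, upA]
      linear_combination e1
    · simp [upN, upW1, upW2, upA]
    · simp [upN, upW1, upW2, upA]
      linear_combination (Real.sqrt 2) * e2
  rw [e]
  exact hmem

/-- Coverage of the tetrahedron by the `2 (M + 1)` cylinders. -/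
theorem fan_covers (hM : 0 < M) (hr : 0 ≤ r) (hkey : KeyProp c (1 / (M : ℝ)) r) {X : E3}
    (hX : X ∈ Ktet) :
    (∃ i ≤ M, X ∈
      {z : E3 | ∃ b ∈ convexHull ℝ ({projU (unitV (loN c M i)) 0,
          projU (unitV (loN c M i)) (0 + loW1 c M r i),
          projU (unitV (loN c M i)) (0 + loW2 c M r i)} : Set E3),
        ∃ s : ℝ, z = b + s • unitV (loN c M i)}) ∨
    (∃ i ≤ M, X ∈
      {z : E3 | ∃ b ∈ convexHull ℝ ({projU (unitV (upN c M i)) upA,
          projU (unitV (upN c M i)) (upA + upW1 c M r i),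
          projU (unitV (upN c M i)) (upA + upW2 c M r i)} : Set E3),
        ∃ s : ℝ, z = b + s • unitV (upN c M i)}) := by
  obtain ⟨t, ht0, ht1, hz, hx, hy⟩ := mem_Ktet_coords hX
  rcases le_or_gt t (1 / 2 + fphi c (X 0) (X 1)) with hφ | hφ
  · left
    obtain ⟨i, hi, hlo, hhi⟩ := fan_sector c M hM (X 0) (X 1) t hy
    obtain ⟨b1, b2, b3, b4, b5, b6⟩ := fT_bounds M hM hi
    have hρ : t - X 0 * fWt c M i ≤ fH c M r i := by
      have := hkey (fS M i) (fTm M i) (fTp M i) (X 0) (X 1) t b6 b1 b2.le b3 b4 b5 ht0 hx hy hφ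
        (by unfold fWt fWy at hlo; exact hlo) (by unfold fWt fWy at hhi; exact hhi)
      unfold fWt fH
      exact this
    have hXe : X = !₂[X 0, X 1, Real.sqrt 2 * t] := by
      apply E3_ext <;> simp [hz]
    refine ⟨i, hi, ?_⟩
    rw [hXe]
    simpa using lower_mem c M r hM hr (X 0) (X 1) t i hi hlo hhi hρ
  · right
    have hy' : |-(X 0)| ≤ 1 - t := by rwa [abs_neg]
    obtain ⟨i, hi, hlo, hhi⟩ := fan_sector c M hM (X 1) (-(X 0)) (1 - t) hy'
    obtain ⟨b1, b2, b3, b4, b5, b6⟩ := fT_bounds M hM hi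
    have hρ : (1 - t) - X 1 * fWt c M i ≤ fH c M r i := by
      have := hkey (fS M i) (fTm M i) (fTp M i) (X 1) (-(X 0)) (1 - t) b6 b1 b2.le b3 b4 b5
        (by linarith) (by simpa using hy) hy' (by rw [fphi_rot]; linarith)
        (by unfold fWt fWy at hlo; exact hlo) (by unfold fWt fWy at hhi; exact hhi)
      unfold fWt fH
      exact this
    have hXe : X = !₂[-(-(X 0)), X 1, Real.sqrt 2 * (1 - (1 - t))] := by
      apply E3_ext <;> simp [hz]
    refine ⟨i, hi, ?_⟩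
    rw [hXe]
    exact upper_mem c M r hM hr (X 1) (-(X 0)) (1 - t) i hi hlo hhi hρ

end vectors

end Crest.Agent.Helper57
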