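import Crest.Agent.Helper57.Fan.Assembly
import Crest.Agent.Helper45.FanKey
import Crest.Agent.Helper25.FanCost
import Crest.Agent.Helper29.TriArea

/-!
# Row 211: the explicit FAN cover of the standard tetrahedron — final forms

Plugs the key inequality (F2, `Helper45.fan_key`), the cost bound (F5, `Helper25.fan_cost`) and the
triangle area formula (`Helper29.euclideanHausdorff_triangle_toReal`) into the geometric assembly.

* `fan_cover` : Gram-area form, `8000002` cylinders;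
* `exists_fan_cover` : the frozen team interface (areas as `μHE[2]`);
* `cover_exact` : exact count `2 ⌈2/ε²⌉₊` and exact total Gram area;
* `s0325_part2` : the second conjunct of statement S0325, verbatim.
-/

set_option autoImplicit false

namespace Crest.Agent.Helper57

open MeasureTheory

theorem keyProp_plan : KeyProp (1 / 1000) (1 / ((4000000 : ℕ) : ℝ)) ((1 / 1000) ^ 2 / 800) := by
  intro s τm τp x y t hs h1 h2 h3 hτm hτp ht hx hy hφ hlo hhi
  have e : (1 : ℝ) / ((4000000 : ℕ) : ℝ) = 1 / 4000000 := by norm_num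
  rw [e] at h1 h3
  exact Crest.Agent.Helper45.fan_key s τm τp x y t hs h1 h2 h3 hτm hτp ht hx hy hφ hlo hhi

theorem fS_plan (i : ℕ) : fS 4000000 i = Crest.Agent.Helper25.fanS i := by
  unfold fS Crest.Agent.Helper25.fanS
  norm_num

theorem fTm_plan (i : ℕ) : fTm 4000000 i = Crest.Agent.Helper25.fanTm i := by
  unfold fTm Crest.Agent.Helper25.fanTm
  rw [fS_plan]
  norm_num

theorem fTp_plan (i : ℕ) : fTp 4000000 i = Crest.Agent.Helper25.fanTp i := by
  unfold fTp Crest.Agent.Helper25.fanTp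
  rw [fS_plan]
  norm_num

theorem fH_plan (i : ℕ) :
    fH (1 / 1000) 4000000 ((1 / 1000) ^ 2 / 800) i = Crest.Agent.Helper25.fanH i := by
  unfold fH Crest.Agent.Helper25.fanH
  rw [fS_plan]

theorem fN2_plan (i : ℕ) : fN2 (1 / 1000) 4000000 i = Crest.Agent.Helper25.fanN2 i := by
  unfold fN2 Crest.Agent.Helper25.fanN2
  rw [fS_plan]

theorem costProp_plan :
    CostProp (1 / 1000) 4000000 ((1 / 1000) ^ 2 / 800) (1 / 4 - 13 / (48 * 10 ^ 9)) := by
  unfold CostProp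
  have h := Crest.Agent.Helper25.fan_cost
  refine le_trans (le_of_eq ?_) h
  refine Finset.sum_congr rfl (fun i _ => ?_)
  rw [fH_plan, fTp_plan, fTm_plan, fN2_plan]

/-- **The FAN cover** (Gram-area form): the standard tetrahedron is covered by `8000002` triangular
cylinders of total Gram area `≤ √2 (1/2 − 13/(24·10⁹))`. -/
theorem fan_cover :
    ∃ (u p q r : Fin 8000002 → E3), IsCylCover Ktet u p q r ∧
      ∑ i, triArea (p i) (q i) (r i) ≤ Real.sqrt 2 * (1 / 2 - 13 / (24 * 10 ^ 9)) :=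
  fan_cover_of keyProp_plan costProp_plan

/-- Exact-count, exact-area cover for every `0 < ε ≤ 1/2000` (Gram-area form). -/
theorem cover_exact (ε : ℝ) (hε : 0 < ε) (hε' : ε ≤ 1 / 2000) :
    ∃ (u p q r : Fin (2 * ⌈2 / ε ^ 2⌉₊) → E3), IsCylCover Ktet u p q r ∧
      ∑ i, triArea (p i) (q i) (r i) = Real.sqrt 2 * (1 / 2 - 13 / 6000 * ε ^ 2) :=
  cover_exact_of keyProp_plan costProp_plan ε hε hε'

theorem triArea_eq_measure (p q r : E3) :
    (μHE[2] (convexHull ℝ ({p, q, r} : Set E3))).toReal = triArea p q r :=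
  Crest.Agent.Helper29.euclideanHausdorff_triangle_toReal p q r

/-- **The FAN cover**, frozen team interface: areas as Lebesgue-normalised Hausdorff measure. -/
theorem exists_fan_cover :
    ∃ (m : ℕ) (u p q r : Fin m → EuclideanSpace ℝ (Fin 3)), m ≤ 15999999 ∧
      (∀ i, ‖u i‖ = 1) ∧
      (∀ i, inner ℝ (p i) (u i) = 0 ∧ inner ℝ (q i) (u i) = 0 ∧ inner ℝ (r i) (u i) = 0) ∧
      convexHull ℝ {!₂[1, 0, 0], !₂[-1, 0, 0], !₂[0, 1, Real.sqrt 2], !₂[0, -1, Real.sqrt 2]} ⊆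
        ⋃ i, {x : EuclideanSpace ℝ (Fin 3) | ∃ b ∈ convexHull ℝ {p i, q i, r i}, ∃ t : ℝ,
          x = b + t • u i} ∧
      (∑ i, (μHE[2] (convexHull ℝ ({p i, q i, r i} : Set (EuclideanSpace ℝ (Fin 3))))).toReal) ≤
        Real.sqrt 2 * (1 / 2 - 13 / (24 * 10 ^ 9)) := by
  obtain ⟨u, p, q, r, ⟨h1, h2, h3⟩, hsum⟩ := fan_cover
  refine ⟨8000002, u, p, q, r, by norm_num, h1, h2, h3, ?_⟩
  simp only [triArea_eq_measure]
  exact hsum

/-- The Gram-area version of `exists_fan_cover` with the statement-shaped set. -/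
theorem exists_fan_cover_gram :
    ∃ (m : ℕ) (u p q r : Fin m → EuclideanSpace ℝ (Fin 3)), m ≤ 15999999 ∧
      (∀ i, ‖u i‖ = 1) ∧
      (∀ i, inner ℝ (p i) (u i) = 0 ∧ inner ℝ (q i) (u i) = 0 ∧ inner ℝ (r i) (u i) = 0) ∧
      convexHull ℝ {!₂[1, 0, 0], !₂[-1, 0, 0], !₂[0, 1, Real.sqrt 2], !₂[0, -1, Real.sqrt 2]} ⊆
        ⋃ i, {x : EuclideanSpace ℝ (Fin 3) | ∃ b ∈ convexHull ℝ {p i, q i, r i}, ∃ t : ℝ,
          x = b + t • u i} ∧
      (∑ i, Real.sqrt (‖q i - p i‖ ^ 2 * ‖r i - p i‖ ^ 2 - (inner ℝ (q i - p i) (r i - p i)) ^ 2) / 2)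
        ≤ Real.sqrt 2 * (1 / 2 - 13 / (24 * 10 ^ 9)) := by
  obtain ⟨u, p, q, r, ⟨h1, h2, h3⟩, hsum⟩ := fan_cover
  exact ⟨8000002, u, p, q, r, by norm_num, h1, h2, h3, hsum⟩

/-- **Second conjunct of S0325, verbatim.** -/
theorem s0325_part2 :
    ∀ ε : ℝ, 0 < ε → ε ≤ 1 / 2000 →
      ∃ (u p q r : Fin (2 * ⌈2 / ε ^ 2⌉₊) → EuclideanSpace ℝ (Fin 3)),
        (∀ i, ‖u i‖ = 1) ∧
        (∀ i, inner ℝ (p i) (u i) = 0 ∧ inner ℝ (q i) (u i) = 0 ∧ inner ℝ (r i) (u i) = 0) ∧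
        convexHull ℝ {!₂[1, 0, 0], !₂[-1, 0, 0], !₂[0, 1, Real.sqrt 2], !₂[0, -1, Real.sqrt 2]} ⊆
          ⋃ i, {x : EuclideanSpace ℝ (Fin 3) | ∃ b ∈ convexHull ℝ {p i, q i, r i}, ∃ t : ℝ, x = b + t • u i} ∧
        abs ((∑ i, (μHE[2] (convexHull ℝ ({p i, q i, r i} : Set (EuclideanSpace ℝ (Fin 3))))).toReal) / Real.sqrt 2 -
            (1 / 2 - 13 / 6000 * ε ^ 2)) ≤ 2 * ε ^ 4 := by
  intro ε hε hε'
  obtain ⟨u, p, q, r, ⟨h1, h2, h3⟩, hsum⟩ := cover_exact ε hε hε'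
  refine ⟨u, p, q, r, h1, h2, h3, ?_⟩
  simp only [triArea_eq_measure]
  rw [hsum]
  have hs : Real.sqrt 2 ≠ 0 := by positivity
  rw [mul_div_cancel_left₀ _ hs, sub_self, abs_zero]
  positivity

end Crest.Agent.Helper57
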